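import Vale.Agent.Lib.P034.Main

/-!
# P034: integral versus fractional expectation thresholds, supports made of few matchings

If a fractional cover `g` of a family `F` costs at most `1/2` at `p`, and the support of `g`
splits into `r` classes (given by a colouring `c`) each consisting of pairwise disjoint sets,
then `F` is `(p / (K r^2))`-small, with a universal constant `K`.  For `r = 1` the support is a
family of pairwise disjoint sets of arbitrary sizes carrying arbitrary weights.
-/

namespace Vale.Agent.Results.P034.DisjointSupport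

open Finset Vale.Agent.Lib.P034

theorem result : ∃ K : ℝ, 0 < K ∧
    ∀ (X : Type) [Fintype X] [DecidableEq X] (F : Finset (Finset X)) (g : Finset X → ℝ)
      (p : ℝ) (r : ℕ) (c : Finset X → ℕ),
      0 ≤ p → 1 ≤ r → (∀ S, 0 ≤ g S) →
      -- the colouring uses `r` colours on the support of `g`
      (∀ S, g S ≠ 0 → c S < r) →
      -- distinct support sets of the same colour are disjoint
      (∀ S T, g S ≠ 0 → g T ≠ 0 → S ≠ T → c S = c T → Disjoint S T) →
      -- `g` is a fractional cover of `F`
      (∀ H ∈ F, 1 ≤ ∑ S ∈ H.powerset, g S) →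
      -- of cost at most `1/2` at `p`
      ∑ S : Finset X, g S * p ^ S.card ≤ 1 / 2 →
      -- then `F` has an integral cover of cost at most `1/2` at `p / (K r^2)`
      ∃ G : Finset (Finset X), (∀ H ∈ F, ∃ S ∈ G, S ⊆ H) ∧
        ∑ S ∈ G, (p / (K * (r : ℝ) ^ 2)) ^ S.card ≤ 1 / 2 :=
  ⟨K0, K0_pos, fun _ _ _ F g p r c hp hr hg hc hd hcov hcost =>
    main F g p r c hp hr hg hc hd hcov hcost⟩

end Vale.Agent.Results.P034.DisjointSupport
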